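import Mathlib

/-! Row 18 block EP: the abstract algebra behind `emsalem'`. -/

set_option autoImplicit false

namespace Crest.Agent.R18.EP

/-- a basis of `ℤ ^ ι` modulo the annihilator of the types -/
theorem lin {ι : Type*} [Fintype ι] [DecidableEq ι] (𝒯 : Set (Finset ι)) :
    ∃ (d : ℕ) (m : Fin d → ι → ℤ) (w : ι → Fin d → ℤ),
      (∀ c : Fin d → ℤ, c ≠ 0 → ∃ T ∈ 𝒯, ∑ k, c k * ∑ i ∈ T, m k i ≠ 0) ∧
      ∀ T ∈ 𝒯, ∀ i, (if i ∈ T then 1 else 0 : ℤ) = ∑ k, w i k * ∑ i' ∈ T, m k i' := by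
  let φ : (ι → ℤ) →ₗ[ℤ] (𝒯 → ℤ) :=
    { toFun := fun n T => ∑ i ∈ T.1, n i
      map_add' := fun n n' => by funext T; simp [Finset.sum_add_distrib]
      map_smul' := fun c n => by funext T; simp [Finset.mul_sum] }
  let b := Module.finBasis ℤ (LinearMap.range φ)
  choose m hm using fun k => (b k).2
  have hb : ∀ k (T : 𝒯), (b k : 𝒯 → ℤ) T = ∑ i ∈ T.1, m k i := fun k T => by rw [← hm k]; rfl
  refine ⟨_, m, fun i k => b.repr ⟨φ (Pi.single i 1), _, rfl⟩ k, fun c hc => ?_, fun T hT i => ?_⟩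
  · by_contra h
    push Not at h
    refine hc (funext (Fintype.linearIndependent_iff.1 b.linearIndependent c ?_))
    apply Subtype.ext
    funext T
    simpa [hb] using h T.1 T.2
  · have h := congrArg (fun z : LinearMap.range φ => (z : 𝒯 → ℤ) ⟨T, hT⟩)
      (b.sum_repr ⟨φ (Pi.single i 1), _, rfl⟩)
    simp only [Submodule.coe_sum, Finset.sum_apply, Submodule.coe_smul, Pi.smul_apply, hb,
      smul_eq_mul] at h
    rw [h]
    change _ = ∑ i' ∈ T, (Pi.single i 1 : ι → ℤ) i'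
    simp [Finset.sum_pi_single']

/-- integer relations in blocks of a sequence in a finitely generated group -/
theorem rel {N : Type*} [AddCommGroup N] [Module.Finite ℤ N] :
    ∃ R : ℕ, ∀ u : Fin R → N, ∃ b : Fin R → ℤ, b ≠ 0 ∧ ∑ t, b t • u t = 0 := by
  refine ⟨Module.finrank ℤ N + 1, fun u => ?_⟩
  have h : ¬ LinearIndependent ℤ u := fun h => by
    simpa using h.fintype_card_le_finrank
  obtain ⟨b, h1, t, ht⟩ := Fintype.not_linearIndependent_iff.1 h
  exact ⟨b, fun h => ht (by rw [h]; rfl), h1⟩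

open Classical in
theorem abs {M R β π ι : Type*} [AddCommGroup M] [CommRing R] [Infinite π] [Fintype ι]
    (L : M →+ R) (o : β → M →+ ℤ) (U : Submodule ℤ M) [Module.Finite ℤ U]
    (hU : ∀ x, (∀ b, o b x = 0) → x ∈ U) (lam : ι → R) (x : π → ι → M)
    (hsum : ∀ p, ∑ i, lam i * L (x p i) = 0)
    (hdisj : ∀ b p p' i i', o b (x p i) ≠ 0 → o b (x p' i') ≠ 0 → p = p')
    (hval : ∀ b p i i', o b (x p i) ≠ 0 → o b (x p i') ≠ 0 → o b (x p i) = o b (x p i'))
    (hem : ∀ (d : ℕ) (Y : ℕ → Fin d → M), (∀ m : Fin d → ℤ, m ≠ 0 → ∀ (s : Finset ℕ) (a : ℕ → ℤ),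
      ∑ j ∈ s, ∑ i, (a j * m i) • Y j i = 0 → ∀ j ∈ s, a j = 0) → ∀ lam' : Fin d → R,
      (∀ j, ∑ i, lam' i * L (Y j i) = 0) → lam' = 0) :
    ∃ p, ∀ b, ∑ i ∈ Finset.univ.filter (fun i => o b (x p i) ≠ 0), lam i = 0 := by
  let T : π → β → Finset ι := fun p b => Finset.univ.filter fun i => o b (x p i) ≠ 0
  obtain ⟨𝒯, h𝒯⟩ := Finite.exists_infinite_fiber fun p : π => Set.range (T p)
  obtain ⟨d, m, w, h1, h2⟩ := lin 𝒯
  obtain ⟨r, hr⟩ := rel (N := ι → U)
  obtain ⟨q, hq⟩ : ∃ q : ℕ × Fin r → π, Function.Injective q ∧ ∀ z, Set.range (T (q z)) = 𝒯 := by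
    obtain ⟨f, hf⟩ := Countable.exists_injective_nat (ℕ × Fin r)
    let g := Infinite.natEmbedding ((fun p : π => Set.range (T p)) ⁻¹' {𝒯})
    exact ⟨fun z => (g (f z)).1, Subtype.val_injective.comp (g.injective.comp hf),
      fun z => (g (f z)).2⟩
  obtain ⟨p₀, hp₀⟩ : ∃ p, Set.range (T p) = 𝒯 := by
    obtain ⟨p⟩ := (inferInstance : Nonempty ((fun p : π => Set.range (T p)) ⁻¹' {𝒯}))
    exact ⟨p.1, p.2⟩
  -- the common order at `b`
  have hγ : ∀ p b, ∃ γ : ℤ, (T p b ≠ ∅ → γ ≠ 0) ∧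
      ∀ i, o b (x p i) = γ * if i ∈ T p b then 1 else 0 := by
    intro p b
    by_cases h : ∃ i, o b (x p i) ≠ 0
    · obtain ⟨i₀, h₀⟩ := h
      refine ⟨o b (x p i₀), fun _ => h₀, fun i => ?_⟩
      by_cases hi : o b (x p i) = 0
      · simp [T, hi]
      · simp [T, hval b p i i₀ hi h₀, h₀]
    · push Not at h
      exact ⟨1, fun _ => one_ne_zero, fun i => by simp [T, h i]⟩
  choose γ hγ0 hγ using hγ
  let y : π → Fin d → M := fun p k => ∑ i, m k i • x p i
  have hy : ∀ p b k, o b (y p k) = γ p b * ∑ i ∈ T p b, m k i := by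
    intro p b k
    simp only [y, map_sum, map_zsmul, hγ p b, smul_eq_mul, mul_ite, mul_one, mul_zero,
      Finset.sum_ite_mem, Finset.univ_inter, Finset.mul_sum, mul_comm]
  have hu : ∀ z i, x (q z) i - ∑ k, w i k • y (q z) k ∈ U := by
    intro z i
    refine hU _ fun b => ?_
    have := h2 (T (q z) b) (by rw [← hq.2 z]; exact ⟨b, rfl⟩) i
    simp only [map_sub, map_sum, map_zsmul, hy, smul_eq_mul]
    rw [hγ, this, Finset.mul_sum, ← Finset.sum_sub_distrib]
    exact Finset.sum_eq_zero fun k _ => by ring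
  choose c hc0 hc using fun j : ℕ => hr fun t i => ⟨_, hu (j, t) i⟩
  have hl := hem d (fun j k => ∑ t, c j t • y (q (j, t)) k) ?_ (fun k => ∑ i, lam i * w i k) ?_
  · refine ⟨p₀, fun b => ?_⟩
    have h3 := h2 (T p₀ b) (by rw [← hp₀]; exact ⟨b, rfl⟩)
    calc ∑ i ∈ T p₀ b, lam i = ∑ i, lam i * ((if i ∈ T p₀ b then 1 else 0 : ℤ) : R) := by
          simp
      _ = ∑ k, (∑ i, lam i * w i k) * ((∑ i' ∈ T p₀ b, m k i' : ℤ) : R) := by
          simp only [h3, Int.cast_sum, Int.cast_mul, Finset.sum_mul]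
          rw [Finset.sum_comm]
          refine Finset.sum_congr rfl fun i _ => ?_
          rw [Finset.mul_sum]
          exact Finset.sum_congr rfl fun k _ => by ring
      _ = 0 := Finset.sum_eq_zero fun k _ => by rw [congrFun hl k, Pi.zero_apply, zero_mul]
  · intro μ hμ s a h j hj
    obtain ⟨T₀, hT₀, hne⟩ := h1 μ hμ
    obtain ⟨t, ht⟩ := Function.ne_iff.1 (hc0 j)
    rw [← hq.2 (j, t)] at hT₀
    obtain ⟨b, rfl⟩ := hT₀
    have hT : T (q (j, t)) b ≠ ∅ := fun h => hne (by simp [h])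
    have hz : ∀ z, z ≠ (j, t) → ∀ k, o b (y (q z) k) = 0 := by
      intro z hz k
      obtain ⟨i, hi⟩ := Finset.nonempty_iff_ne_empty.2 hT
      have : T (q z) b = ∅ := Finset.filter_eq_empty_iff.2 fun i' _ h' =>
        hz (hq.1 (hdisj b _ _ i' i h' (Finset.mem_filter.1 hi).2))
      rw [hy, this, Finset.sum_empty, mul_zero]
    have h4 := congrArg (o b) h
    simp only [map_sum, map_zsmul, map_zero, smul_eq_mul] at h4
    rw [Finset.sum_eq_single_of_mem j hj fun j' _ hj' => Finset.sum_eq_zero fun k _ => by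
      rw [Finset.sum_eq_zero fun t' _ => by
        rw [hz _ (fun h => hj' (congrArg Prod.fst h)), mul_zero], mul_zero]] at h4
    have h5 : ∀ k, ∑ t', c j t' * o b (y (q (j, t')) k)
        = c j t * (γ (q (j, t)) b * ∑ i ∈ T (q (j, t)) b, m k i) := fun k => by
      rw [Finset.sum_eq_single t (fun t' _ ht' => by
        rw [hz _ (fun h => ht' (congrArg Prod.snd h)), mul_zero]) (by simp), hy]
    simp only [h5] at h4
    have h6 : a j * (c j t * (γ (q (j, t)) b * ∑ k, μ k * ∑ i ∈ T (q (j, t)) b, m k i)) = 0 := by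
      rw [← h4, Finset.mul_sum, Finset.mul_sum, Finset.mul_sum]
      exact Finset.sum_congr rfl fun k _ => by ring
    exact (mul_eq_zero.1 h6).resolve_right (mul_ne_zero ht (mul_ne_zero (hγ0 _ _ hT) hne))
  · intro j
    have h7 : ∀ i, ∑ t, (c j t : R) * ∑ k, (w i k : R) * L (y (q (j, t)) k)
        = ∑ t, (c j t : R) * L (x (q (j, t)) i) := by
      intro i
      have := congrArg (fun v : ι → U => L (v i : M)) (hc j)
      simp only [Finset.sum_apply, Pi.smul_apply, Submodule.coe_sum, Submodule.coe_smul,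
        map_sum, map_zsmul, map_sub, Pi.zero_apply, Submodule.coe_zero, map_zero, zsmul_eq_mul,
        mul_sub, Finset.sum_sub_distrib] at this
      exact (sub_eq_zero.1 this).symm
    calc ∑ k, (∑ i, lam i * (w i k : R)) * L (∑ t, c j t • y (q (j, t)) k)
        = ∑ i, lam i * ∑ t, (c j t : R) * ∑ k, (w i k : R) * L (y (q (j, t)) k) := by
          simp only [map_sum, map_zsmul, zsmul_eq_mul, Finset.sum_mul]
          rw [Finset.sum_comm]
          refine Finset.sum_congr rfl fun i _ => ?_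
          simp only [Finset.mul_sum]
          rw [Finset.sum_comm]
          exact Finset.sum_congr rfl fun _ _ => Finset.sum_congr rfl fun _ _ => by ring
      _ = ∑ t, (c j t : R) * ∑ i, lam i * L (x (q (j, t)) i) := by
          simp only [h7]
          simp only [Finset.mul_sum]
          rw [Finset.sum_comm]
          exact Finset.sum_congr rfl fun _ _ => Finset.sum_congr rfl fun _ _ => by ring
      _ = 0 := by simp [hsum]

end Crest.Agent.R18.EP
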